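import Mathlib

/-! Numbers for the exceptional proportion `exp (- a ^ (1 / 15))`. -/

namespace Vale.Agent.P181.H676

open Filter Topology

theorem num15 (q : ℕ) (hq : 1 ≤ q) : ∀ᶠ a : ℕ in atTop, ∃ s : ℕ, 2 ≤ s ∧
    25 * s ^ 4 * q ^ 2 ≤ a ∧
    (10 : ℝ) ^ 6 * s ^ 14 * q ^ 9 * a * Real.log a ≤ ((q * a : ℕ) : ℝ) ^ 2 ∧
    ((a * (q * a) + 1 : ℕ) : ℝ) * Real.exp ((a : ℝ) ^ ((1 : ℝ) / 15)) ≤ 2 ^ (s / 4) := by
  have hx : Tendsto (fun a : ℕ => (a : ℝ) ^ ((1 : ℝ) / 15)) atTop atTop :=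
    (tendsto_rpow_atTop (by norm_num)).comp tendsto_natCast_atTop_atTop
  have hlog : ∀ c : ℝ, 0 < c → ∀ᶠ x : ℝ in atTop, Real.log x ≤ c * x := by
    intro c hc
    filter_upwards [Real.isLittleO_log_id_atTop.bound hc, eventually_ge_atTop 0] with x h1 h2
    simp only [id, Real.norm_eq_abs, abs_of_nonneg h2] at h1
    exact (le_abs_self _).trans h1
  set C3 : ℝ := 10 ^ 6 * 9 ^ 14 * (q : ℝ) ^ 7 * 15 with hC3
  have hC3p : 0 < C3 := by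
    have : (0 : ℝ) < q := by exact_mod_cast hq
    positivity
  have hev : ∀ᶠ x : ℝ in atTop, 1 ≤ x ∧ 25 * 9 ^ 4 * (q : ℝ) ^ 2 ≤ x ∧ C3 * Real.log x ≤ x ∧
      Real.log (q + 1) + 1 ≤ 0.1 * x ∧ 30 * Real.log x ≤ 0.1 * x := by
    filter_upwards [eventually_ge_atTop 1, eventually_ge_atTop (25 * 9 ^ 4 * (q : ℝ) ^ 2),
      hlog (1 / C3) (by positivity), eventually_ge_atTop (10 * (Real.log (q + 1) + 1)),
      hlog (1 / 300) (by norm_num)] with x h1 h2 h3 h4 h5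
    refine ⟨h1, h2, ?_, by linarith, by linarith⟩
    calc C3 * Real.log x ≤ C3 * (1 / C3 * x) := mul_le_mul_of_nonneg_left h3 hC3p.le
      _ = x := by field_simp
  filter_upwards [hx.eventually hev, eventually_ge_atTop 1] with a ⟨h1, h2, h3, h4, h5⟩ ha
  set x : ℝ := (a : ℝ) ^ ((1 : ℝ) / 15) with hxd
  have ha0 : (0 : ℝ) < a := by exact_mod_cast (by omega : 0 < a)
  have hx15 : x ^ 15 = a := by
    rw [hxd, ← Real.rpow_natCast, ← Real.rpow_mul ha0.le]; norm_num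
  have hla : Real.log a = 15 * Real.log x := by
    rw [← hx15, Real.log_pow]; norm_num
  have hx0 : 0 < x := by linarith
  have hlx : 0 ≤ Real.log x := Real.log_nonneg h1
  refine ⟨⌈8 * x⌉₊, ?_, ?_, ?_, ?_⟩
  · have : (8 : ℝ) ≤ (⌈8 * x⌉₊ : ℝ) := le_trans (by linarith) (Nat.le_ceil _)
    have : 8 ≤ ⌈8 * x⌉₊ := by exact_mod_cast this
    omega
  · have hs : (⌈8 * x⌉₊ : ℝ) ≤ 9 * x := by
      have := Nat.ceil_lt_add_one (a := 8 * x) (by positivity)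
      linarith
    have e1 : (⌈8 * x⌉₊ : ℝ) ^ 4 ≤ (9 * x) ^ 4 := pow_le_pow_left₀ (Nat.cast_nonneg _) hs 4
    have e2 : (25 : ℝ) * (⌈8 * x⌉₊ : ℝ) ^ 4 * (q : ℝ) ^ 2 ≤ a := by
      rw [← hx15]
      calc (25 : ℝ) * (⌈8 * x⌉₊ : ℝ) ^ 4 * (q : ℝ) ^ 2 ≤ 25 * (9 * x) ^ 4 * (q : ℝ) ^ 2 := by
            gcongr
        _ = (25 * 9 ^ 4 * (q : ℝ) ^ 2) * x ^ 4 := by ring
        _ ≤ x * x ^ 4 := mul_le_mul_of_nonneg_right h2 (by positivity)
        _ = x ^ 5 := by ring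
        _ ≤ x ^ 15 := pow_le_pow_right₀ h1 (by norm_num)
    exact_mod_cast e2
  · have hs : (⌈8 * x⌉₊ : ℝ) ≤ 9 * x := by
      have := Nat.ceil_lt_add_one (a := 8 * x) (by positivity)
      linarith
    have e1 : (⌈8 * x⌉₊ : ℝ) ^ 14 ≤ (9 * x) ^ 14 := pow_le_pow_left₀ (Nat.cast_nonneg _) hs 14
    have hla0 : 0 ≤ Real.log a := by rw [hla]; positivity
    have e3 : (10 : ℝ) ^ 6 * (9 * x) ^ 14 * (q : ℝ) ^ 7 * Real.log a ≤ a := by
      rw [hla]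
      calc (10 : ℝ) ^ 6 * (9 * x) ^ 14 * (q : ℝ) ^ 7 * (15 * Real.log x)
          = x ^ 14 * (C3 * Real.log x) := by rw [hC3]; ring
        _ ≤ x ^ 14 * x := mul_le_mul_of_nonneg_left h3 (by positivity)
        _ = x ^ 15 := by ring
        _ = a := hx15
    push_cast
    calc (10 : ℝ) ^ 6 * (⌈8 * x⌉₊ : ℝ) ^ 14 * (q : ℝ) ^ 9 * a * Real.log a
        ≤ (10 : ℝ) ^ 6 * (9 * x) ^ 14 * (q : ℝ) ^ 9 * a * Real.log a := by gcongr
      _ = ((q : ℝ) ^ 2 * a) * ((10 : ℝ) ^ 6 * (9 * x) ^ 14 * (q : ℝ) ^ 7 * Real.log a) := by ring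
      _ ≤ ((q : ℝ) ^ 2 * a) * a := mul_le_mul_of_nonneg_left e3 (by positivity)
      _ = ((q : ℝ) * a) ^ 2 := by ring
  · have hl2 : (0.6931471803 : ℝ) < Real.log 2 := Real.log_two_gt_d9
    have e0 : (2 : ℝ) * x - 1 ≤ ((⌈8 * x⌉₊ / 4 : ℕ) : ℝ) := by
      have e1 : ⌈8 * x⌉₊ ≤ 4 * (⌈8 * x⌉₊ / 4) + 3 := by omega
      have e2 : ((⌈8 * x⌉₊ : ℕ) : ℝ) ≤ 4 * ((⌈8 * x⌉₊ / 4 : ℕ) : ℝ) + 3 := by exact_mod_cast e1
      have e3 := Nat.le_ceil (8 * x)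
      linarith
    have e1 : Real.exp ((2 * x - 1) * Real.log 2) ≤ 2 ^ (⌈8 * x⌉₊ / 4) := by
      rw [← Real.exp_log (show (0 : ℝ) < 2 ^ (⌈8 * x⌉₊ / 4) by positivity), Real.log_pow]
      exact Real.exp_le_exp.2 (mul_le_mul_of_nonneg_right e0 (by linarith))
    have e2 : ((a * (q * a) + 1 : ℕ) : ℝ) ≤ ((q : ℝ) + 1) * (a : ℝ) ^ 2 := by
      have : (1 : ℝ) ≤ a := by exact_mod_cast ha
      push_cast
      nlinarith
    have hq1 : (0 : ℝ) < (q : ℝ) + 1 := by positivity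
    have e3 : ((q : ℝ) + 1) * (a : ℝ) ^ 2 = Real.exp (Real.log (q + 1) + 30 * Real.log x) := by
      rw [Real.exp_add, Real.exp_log hq1]
      congr 1
      rw [show (30 : ℝ) * Real.log x = 2 * Real.log a by rw [hla]; ring]
      rw [show (2 : ℝ) * Real.log a = Real.log ((a : ℝ) ^ 2) by rw [Real.log_pow]; norm_num]
      rw [Real.exp_log (by positivity)]
    calc ((a * (q * a) + 1 : ℕ) : ℝ) * Real.exp x
        ≤ (((q : ℝ) + 1) * (a : ℝ) ^ 2) * Real.exp x :=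
          mul_le_mul_of_nonneg_right e2 (Real.exp_pos _).le
      _ = Real.exp (Real.log (q + 1) + 30 * Real.log x + x) := by rw [e3, ← Real.exp_add]
      _ ≤ Real.exp ((2 * x - 1) * Real.log 2) := by
          refine Real.exp_le_exp.2 ?_
          have : (2 * x - 1) * 0.6931471803 ≤ (2 * x - 1) * Real.log 2 :=
            mul_le_mul_of_nonneg_left hl2.le (by linarith)
          linarith
      _ ≤ _ := e1

end Vale.Agent.P181.H676
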