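import Vale.Agent.P181.H676.Tail

/-! Explicit rate: all but a fraction `1 / a` of the partitions of `q a ^ 2` with at most `a` parts
have all parts at most `sA q a * (q a)`, `sA q a = O(log a)`. -/

namespace Vale.Agent.P181.H676

open Finset Filter Topology

open Classical in
theorem good_add_bad {a N t : ℕ} :
    ((Lam a N).filter fun l => ∀ i, l i ≤ t).card +
      ((Lam a N).filter fun l => ∃ i, t + 1 ≤ l i).card = (Lam a N).card := by
  rw [← Finset.card_filter_add_card_filter_not (s := Lam a N) (fun l => ∀ i, l i ≤ t)]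
  congr 2
  refine Finset.filter_congr fun l _ => ?_
  simp only [not_forall, not_le, Nat.succ_le_iff]

open Classical in
/-- all but a fraction `1 / D` of the partitions of `a b` with at most `a` parts have parts at most
`4 k b`, as soon as `D (a b + 1) ≤ 2 ^ k` -/
theorem rate {a b k D : ℕ} (hb : 1 ≤ b) (hab : a ≤ 4 * b) (hk : D * (a * b + 1) ≤ 2 ^ k) :
    (D - 1) * (Lam a (a * b)).card ≤
      D * ((Lam a (a * b)).filter fun l => ∀ i, l i ≤ 4 * k * b).card := by
  have h1 := tail a b (4 * k * b + 1) hb hab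
  have h2 : (4 * k * b + 1) / (4 * b) = k := by
    rw [show 4 * k * b + 1 = 1 + (4 * b) * k by ring, Nat.add_mul_div_left _ _ (by omega),
      Nat.div_eq_of_lt (by omega), Nat.zero_add]
  rw [h2] at h1
  have h3 := good_add_bad (a := a) (N := a * b) (t := 4 * k * b)
  set g := ((Lam a (a * b)).filter fun l => ∀ i, l i ≤ 4 * k * b).card
  set x := ((Lam a (a * b)).filter fun l => ∃ i, 4 * k * b + 1 ≤ l i).card
  set L := (Lam a (a * b)).card
  have h4 : D * x ≤ L := by
    have e1 : (a * b + 1) * (D * x) ≤ (a * b + 1) * L := by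
      calc (a * b + 1) * (D * x) = x * (D * (a * b + 1)) := by ring
        _ ≤ x * 2 ^ k := Nat.mul_le_mul_left _ hk
        _ ≤ _ := h1
    exact Nat.le_of_mul_le_mul_left e1 (by omega)
  rw [Nat.sub_mul, one_mul]
  have h5 : D * L = D * g + D * x := by rw [← h3]; ring
  omega

open Classical in
/-- the exceptional proportion is at most `(a b + 1) / 2 ^ ⌊s / 4⌋` -/
theorem bad_le {a b s : ℕ} (hb : 1 ≤ b) (hab : a ≤ 4 * b) :
    ((Lam a (a * b)).filter fun l => ¬ ∀ i, l i ≤ s * b).card * 2 ^ (s / 4) ≤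
      (a * b + 1) * (Lam a (a * b)).card := by
  have h1 := tail a b (s * b + 1) hb hab
  have h2 : s / 4 ≤ (s * b + 1) / (4 * b) := by
    rw [Nat.le_div_iff_mul_le (by omega)]
    have := Nat.div_mul_le_self s 4
    calc s / 4 * (4 * b) = (s / 4 * 4) * b := by ring
      _ ≤ s * b := Nat.mul_le_mul_right _ this
      _ ≤ s * b + 1 := by omega
  have h3 : ((Lam a (a * b)).filter fun l => ¬ ∀ i, l i ≤ s * b) =
      ((Lam a (a * b)).filter fun l => ∃ i, s * b + 1 ≤ l i) := by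
    refine Finset.filter_congr fun l _ => ?_
    simp only [not_forall, not_le, Nat.succ_le_iff]
  rw [h3]
  exact le_trans (Nat.mul_le_mul_left _ (Nat.pow_le_pow_right (by norm_num) h2)) h1

/-- the number of rows scale, `O(log a)` -/
def sA (q a : ℕ) : ℕ := 4 * (Nat.log 2 (a * (a * (q * a) + 1)) + 1)

theorem two_le_sA (q a : ℕ) : 2 ≤ sA q a := by unfold sA; omega

open Classical in
/-- all but a fraction `1 / a` -/
theorem good_rate {q a : ℕ} (hq : 1 ≤ q) (ha : 1 ≤ a) :
    (a - 1) * (Lam a (a * (q * a))).card ≤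
      a * ((Lam a (a * (q * a))).filter fun l => ∀ i, l i ≤ sA q a * (q * a)).card := by
  have hb : 1 ≤ q * a := Nat.mul_pos hq ha
  have hab : a ≤ 4 * (q * a) := by
    calc a = 1 * a := (one_mul a).symm
      _ ≤ q * a := Nat.mul_le_mul_right _ hq
      _ ≤ 4 * (q * a) := by omega
  exact rate hb hab (Nat.lt_pow_succ_log_self (by norm_num) _).le

theorem sA_le {q a : ℕ} (h3 : 3 ≤ a) (hqa : q + 1 ≤ a) : (sA q a : ℝ) ≤ 28 * Real.log a := by
  have ha : (0 : ℝ) < a := by exact_mod_cast (by omega : 0 < a)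
  have hN : a * (a * (q * a) + 1) ≤ a ^ 4 := by
    calc a * (a * (q * a) + 1) = q * a ^ 3 + a := by ring
      _ ≤ q * a ^ 3 + a ^ 3 := by
        have : a ≤ a ^ 3 := Nat.le_self_pow (by norm_num) a
        omega
      _ = (q + 1) * a ^ 3 := by ring
      _ ≤ a * a ^ 3 := Nat.mul_le_mul_right _ hqa
      _ = a ^ 4 := by ring
  have hlog : 1 ≤ Real.log a := by
    have h1 : Real.exp 1 ≤ a := by
      have := Real.exp_one_lt_d9
      have h3' : (3 : ℝ) ≤ a := by exact_mod_cast h3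
      linarith
    rw [← Real.log_exp 1]
    exact Real.log_le_log (Real.exp_pos 1) h1
  have hl2 : (0.6931471803 : ℝ) < Real.log 2 := Real.log_two_gt_d9
  have h0 : a * (a * (q * a) + 1) ≠ 0 := by positivity
  have h1 : (2 : ℝ) ^ (Nat.log 2 (a * (a * (q * a) + 1))) ≤ (a : ℝ) ^ 4 := by
    have := (Nat.pow_log_le_self 2 h0).trans hN
    exact_mod_cast this
  have h2 : (Nat.log 2 (a * (a * (q * a) + 1)) : ℝ) * Real.log 2 ≤ 4 * Real.log a := by
    have := Real.log_le_log (by positivity) h1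
    rw [Real.log_pow, Real.log_pow] at this
    exact_mod_cast this
  have h4 : (Nat.log 2 (a * (a * (q * a) + 1)) : ℝ) ≤ 6 * Real.log a := by
    have hx : (0 : ℝ) ≤ (Nat.log 2 (a * (a * (q * a) + 1)) : ℝ) := Nat.cast_nonneg _
    nlinarith
  unfold sA
  push_cast
  linarith

/-- `sA` is smaller than any power of `a` -/
theorem sA_small (q p : ℕ) (C : ℝ) (hC : 0 ≤ C) :
    ∀ᶠ a : ℕ in atTop, C * (sA q a : ℝ) ^ p * Real.log a ≤ a := by
  have h1 : (fun x : ℝ => Real.log x ^ (p + 1)) =o[atTop] (id : ℝ → ℝ) :=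
    Real.isLittleO_pow_log_id_atTop
  have h2 := (h1.comp_tendsto tendsto_natCast_atTop_atTop).bound
    (c := 1 / (C * 28 ^ p + 1)) (by positivity)
  filter_upwards [h2, eventually_ge_atTop 3, eventually_ge_atTop (q + 1)] with a ha h3 hqa
  have hs := sA_le h3 hqa
  have hlog : 0 ≤ Real.log a := Real.log_natCast_nonneg a
  simp only [Function.comp, id, Real.norm_eq_abs] at ha
  rw [abs_of_nonneg (pow_nonneg hlog _), abs_of_nonneg (Nat.cast_nonneg a : (0 : ℝ) ≤ a)] at ha
  have h4 : (sA q a : ℝ) ^ p ≤ (28 * Real.log a) ^ p :=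
    pow_le_pow_left₀ (Nat.cast_nonneg _) hs p
  have h5 : (C * 28 ^ p + 1) * Real.log a ^ (p + 1) ≤ a := by
    have hpos : (0 : ℝ) < C * 28 ^ p + 1 := by positivity
    calc (C * 28 ^ p + 1) * Real.log a ^ (p + 1)
        ≤ (C * 28 ^ p + 1) * (1 / (C * 28 ^ p + 1) * a) := mul_le_mul_of_nonneg_left ha hpos.le
      _ = a := by field_simp
  calc C * (sA q a : ℝ) ^ p * Real.log a ≤ C * (28 * Real.log a) ^ p * Real.log a := by
        exact mul_le_mul_of_nonneg_right (mul_le_mul_of_nonneg_left h4 hC) hlog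
    _ = (C * 28 ^ p) * Real.log a ^ (p + 1) := by rw [mul_pow]; ring
    _ ≤ (C * 28 ^ p + 1) * Real.log a ^ (p + 1) :=
        mul_le_mul_of_nonneg_right (by linarith) (pow_nonneg hlog _)
    _ ≤ a := h5

/-- the numerical conditions of the powMap theorem, with `s = sA q a` and `X = q a` -/
theorem numbers (q : ℕ) (hq : 1 ≤ q) (c : ℕ) :
    ∀ᶠ a : ℕ in atTop, c * (sA q a) ^ 4 * q ^ 2 ≤ a ∧
      (10 : ℝ) ^ c * (sA q a : ℝ) ^ 14 * (q : ℝ) ^ 9 * a * Real.log a ≤ (((q * a : ℕ)) : ℝ) ^ 2 := by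
  filter_upwards [sA_small q 4 (c * (q : ℝ) ^ 2) (by positivity),
    sA_small q 14 ((10 : ℝ) ^ c * (q : ℝ) ^ 7) (by positivity), eventually_ge_atTop 3]
    with a h1 h2 h3
  have hlog : 1 ≤ Real.log a := by
    have h1 : Real.exp 1 ≤ a := by
      have := Real.exp_one_lt_d9
      have h3' : (3 : ℝ) ≤ a := by exact_mod_cast h3
      linarith
    rw [← Real.log_exp 1]
    exact Real.log_le_log (Real.exp_pos 1) h1
  constructor
  · have : ((c * (sA q a) ^ 4 * q ^ 2 : ℕ) : ℝ) ≤ (a : ℝ) := by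
      push_cast
      have hx : (0 : ℝ) ≤ (c : ℝ) * (q : ℝ) ^ 2 * (sA q a : ℝ) ^ 4 := by positivity
      nlinarith
    exact_mod_cast this
  · have ha : (0 : ℝ) ≤ (q : ℝ) ^ 2 * a := by positivity
    have := mul_le_mul_of_nonneg_left h2 ha
    push_cast
    calc (10 : ℝ) ^ c * (sA q a : ℝ) ^ 14 * (q : ℝ) ^ 9 * a * Real.log a
        = (q : ℝ) ^ 2 * a * ((10 : ℝ) ^ c * (q : ℝ) ^ 7 * (sA q a : ℝ) ^ 14 * Real.log a) := by ring
      _ ≤ (q : ℝ) ^ 2 * a * a := this
      _ = ((q : ℝ) * a) ^ 2 := by ring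

end Vale.Agent.P181.H676
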