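import Mathlib

/-! Partitions of `a * b` with at most `a` parts: the largest part is almost always `O(b log a)`.
Elementary: double counting with the columns of the diagram. -/

namespace Vale.Agent.P181.H676

open Finset Filter Topology

open Classical in
/-- The partitions of `N` with at most `a` parts, as antitone functions on `Fin a`. -/
noncomputable def Lam (a N : ℕ) : Finset (Fin a → ℕ) :=
  (Fintype.piFinset fun _ => Finset.range (N + 1)).filter fun l => Antitone l ∧ ∑ i, l i = N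

theorem mem_Lam {a N : ℕ} {l : Fin a → ℕ} : l ∈ Lam a N ↔ Antitone l ∧ ∑ i, l i = N := by
  unfold Lam
  constructor
  · intro h; exact (Finset.mem_filter.1 h).2
  · rintro ⟨h1, h2⟩
    refine Finset.mem_filter.2 ⟨Fintype.mem_piFinset.2 fun i => ?_, h1, h2⟩
    rw [Finset.mem_range, Nat.lt_succ_iff, ← h2]
    exact Finset.single_le_sum (f := l) (fun _ _ => Nat.zero_le _) (Finset.mem_univ i)

/-- add `j` columns of height `d + 1` and `r` columns of height `1` -/
def addc {n : ℕ} (d : Fin (n + 1)) (j r : ℕ) (l : Fin (n + 1) → ℕ) : Fin (n + 1) → ℕ :=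
  fun i => l i + (if i ≤ d then j else 0) + (if i = 0 then r else 0)

theorem addc_inj {n : ℕ} (d : Fin (n + 1)) (j r : ℕ) : Function.Injective (addc d j r) := by
  intro l l' h
  funext i
  have := congrFun h i
  simp only [addc] at this
  omega

theorem addc_anti {n : ℕ} (d : Fin (n + 1)) (j r : ℕ) {l : Fin (n + 1) → ℕ} (hl : Antitone l) :
    Antitone (addc d j r l) := by
  intro i i' hii
  have h1 := hl hii
  have h2 : (if i' ≤ d then j else 0) ≤ (if i ≤ d then j else 0) := by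
    by_cases h : i' ≤ d
    · rw [if_pos h, if_pos (hii.trans h)]
    · rw [if_neg h]; exact Nat.zero_le _
  have h3 : (if i' = 0 then r else 0) ≤ (if i = 0 then r else 0) := by
    by_cases h : i' = 0
    · have : i = 0 := le_antisymm (h ▸ hii) (Fin.zero_le _)
      rw [if_pos h, if_pos this]
    · rw [if_neg h]; exact Nat.zero_le _
  simp only [addc]
  omega

theorem addc_sum {n : ℕ} (d : Fin (n + 1)) (j r : ℕ) (l : Fin (n + 1) → ℕ) :
    ∑ i, addc d j r l i = ∑ i, l i + ((d : ℕ) + 1) * j + r := by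
  simp only [addc, Finset.sum_add_distrib]
  have h1 : ∑ i : Fin (n + 1), (if i ≤ d then j else 0) = ((d : ℕ) + 1) * j := by
    rw [← Finset.sum_filter, Finset.sum_const, smul_eq_mul]
    congr 1
    have : (Finset.univ.filter fun i : Fin (n + 1) => i ≤ d) = Finset.Iic d := by
      ext i; simp
    rw [this, Fin.card_Iic]
  have h2 : ∑ i : Fin (n + 1), (if i = 0 then r else 0) = r := by
    rw [Finset.sum_ite_eq' Finset.univ (0 : Fin (n + 1)) (fun _ => r)]
    simp
  rw [h1, h2]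

/-- the value at `d`, zero beyond the end -/
def nx {n : ℕ} (l : Fin (n + 1) → ℕ) (d : ℕ) : ℕ := if h : d < n + 1 then l ⟨d, h⟩ else 0

theorem nx_anti {n : ℕ} {l : Fin (n + 1) → ℕ} (hl : Antitone l) (d : ℕ) :
    nx l (d + 1) ≤ nx l d := by
  unfold nx
  by_cases h : d + 1 < n + 1
  · rw [dif_pos h, dif_pos (by omega)]
    exact hl (by simp [Fin.le_def])
  · rw [dif_neg h]; exact Nat.zero_le _

theorem abel (L : ℕ → ℕ) (hL : ∀ d, L (d + 1) ≤ L d) (k : ℕ) :
    ∑ d ∈ range k, (d + 1) * (L d - L (d + 1)) + k * L k = ∑ d ∈ range k, L d := by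
  induction k with
  | zero => simp
  | succ k ih =>
    rw [Finset.sum_range_succ, Finset.sum_range_succ, ← ih]
    obtain ⟨c, hc⟩ := Nat.exists_eq_add_of_le (hL k)
    have h1 : L k - L (k + 1) = c := by omega
    rw [h1, hc]
    ring

theorem sum_gap {n : ℕ} {l : Fin (n + 1) → ℕ} (hl : Antitone l) :
    ∑ d ∈ range (n + 1), (d + 1) * (nx l d - nx l (d + 1)) = ∑ i, l i := by
  have h := abel (nx l) (nx_anti hl) (n + 1)
  have h0 : nx l (n + 1) = 0 := by unfold nx; rw [dif_neg (by omega)]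
  rw [h0, Nat.mul_zero, Nat.add_zero] at h
  rw [h, Finset.sum_range]
  refine Finset.sum_congr rfl fun i _ => ?_
  unfold nx
  rw [dif_pos i.2]

open Classical in
theorem count_ge {n N K : ℕ} (d : Fin (n + 1)) {j : ℕ} (hj : j * ((d : ℕ) + 1) ≤ K) :
    (Lam (n + 1) N).card ≤
      ((Lam (n + 1) (N + K)).filter fun l => j ≤ nx l d - nx l (d + 1)).card := by
  refine Finset.card_le_card_of_injOn (addc d j (K - j * ((d : ℕ) + 1))) ?_
    (addc_inj _ _ _).injOn
  intro l hl
  have hl := mem_Lam.1 (Finset.mem_coe.1 hl)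
  refine Finset.mem_coe.2 (Finset.mem_filter.2 ⟨mem_Lam.2 ⟨addc_anti _ _ _ hl.1, ?_⟩, ?_⟩)
  · rw [addc_sum, hl.2, mul_comm ((d : ℕ) + 1) j]
    omega
  · have h0 := nx_anti hl.1 (d : ℕ)
    have h1 : nx (addc d j (K - j * ((d : ℕ) + 1)) l) (d : ℕ) ≥ nx l d + j := by
      unfold nx
      rw [dif_pos d.2, dif_pos d.2]
      simp only [addc, Fin.eta, le_refl, if_true]
      omega
    have h2 : nx (addc d j (K - j * ((d : ℕ) + 1)) l) ((d : ℕ) + 1) = nx l ((d : ℕ) + 1) := by
      unfold nx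
      by_cases h : (d : ℕ) + 1 < n + 1
      · rw [dif_pos h, dif_pos h]
        have e1 : ¬ ((⟨(d : ℕ) + 1, h⟩ : Fin (n + 1)) ≤ d) := by
          rw [Fin.le_def]; simp
        have e2 : ¬ ((⟨(d : ℕ) + 1, h⟩ : Fin (n + 1)) = 0) := by
          intro e
          have := congrArg Fin.val e
          simp at this
        simp only [addc, if_neg e1, if_neg e2, Nat.add_zero]
      · rw [dif_neg h, dif_neg h]
    omega

open Classical in
theorem sum_ge {n N K : ℕ} (d : Fin (n + 1)) :
    (K / ((d : ℕ) + 1)) * (Lam (n + 1) N).card ≤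
      ∑ l ∈ Lam (n + 1) (N + K), (nx l d - nx l (d + 1)) := by
  set J := K / ((d : ℕ) + 1) with hJ
  have hx : ∀ x : ℕ, ∑ j ∈ Finset.Icc 1 J, (if j ≤ x then 1 else 0) ≤ x := by
    intro x
    rw [← Finset.sum_filter, Finset.sum_const, smul_eq_mul, mul_one]
    refine (Finset.card_le_card (t := Finset.Icc 1 x) ?_).trans (by simp)
    intro j hj
    rw [Finset.mem_filter, Finset.mem_Icc] at hj
    exact Finset.mem_Icc.2 ⟨hj.1.1, hj.2⟩
  calc J * (Lam (n + 1) N).card
      = ∑ j ∈ Finset.Icc 1 J, (Lam (n + 1) N).card := by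
        rw [Finset.sum_const, smul_eq_mul]; simp
    _ ≤ ∑ j ∈ Finset.Icc 1 J,
          ((Lam (n + 1) (N + K)).filter fun l => j ≤ nx l d - nx l (d + 1)).card := by
        refine Finset.sum_le_sum fun j hj => count_ge d ?_
        rw [Finset.mem_Icc] at hj
        calc j * ((d : ℕ) + 1) ≤ J * ((d : ℕ) + 1) := Nat.mul_le_mul_right _ hj.2
          _ ≤ K := Nat.div_mul_le_self _ _
    _ = ∑ j ∈ Finset.Icc 1 J, ∑ l ∈ Lam (n + 1) (N + K),
          (if j ≤ nx l d - nx l (d + 1) then 1 else 0) := by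
        refine Finset.sum_congr rfl fun j _ => ?_
        rw [Finset.card_filter]
    _ = ∑ l ∈ Lam (n + 1) (N + K), ∑ j ∈ Finset.Icc 1 J,
          (if j ≤ nx l d - nx l (d + 1) then 1 else 0) := Finset.sum_comm
    _ ≤ _ := Finset.sum_le_sum fun l _ => hx _

theorem key {n N K : ℕ} (hK : n ≤ K) :
    (n + 1) * K * (Lam (n + 1) N).card ≤ 2 * (N + K) * (Lam (n + 1) (N + K)).card := by
  have h1 : ∑ l ∈ Lam (n + 1) (N + K), ∑ d ∈ range (n + 1), (d + 1) * (nx l d - nx l (d + 1))
      = (N + K) * (Lam (n + 1) (N + K)).card := by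
    rw [Finset.sum_congr rfl fun l hl => (sum_gap (mem_Lam.1 hl).1).trans (mem_Lam.1 hl).2,
      Finset.sum_const, smul_eq_mul, mul_comm]
  rw [Finset.sum_comm] at h1
  have h2 : ∑ d ∈ range (n + 1), (K - d) * (Lam (n + 1) N).card ≤
      ∑ d ∈ range (n + 1), ∑ l ∈ Lam (n + 1) (N + K), (d + 1) * (nx l d - nx l (d + 1)) := by
    refine Finset.sum_le_sum fun d hd => ?_
    rw [Finset.mem_range] at hd
    have h3 := sum_ge (N := N) (K := K) (⟨d, hd⟩ : Fin (n + 1))
    simp only at h3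
    rw [← Finset.mul_sum]
    have h4 : K - d ≤ (d + 1) * (K / (d + 1)) := by
      have e1 := Nat.div_add_mod K (d + 1)
      have e2 : K % (d + 1) < d + 1 := Nat.mod_lt K (by omega)
      omega
    calc (K - d) * (Lam (n + 1) N).card ≤ ((d + 1) * (K / (d + 1))) * (Lam (n + 1) N).card :=
          Nat.mul_le_mul_right _ h4
      _ = (d + 1) * ((K / (d + 1)) * (Lam (n + 1) N).card) := by ring
      _ ≤ _ := Nat.mul_le_mul_left _ h3
  have h5 : (n + 1) * K ≤ 2 * ∑ d ∈ range (n + 1), (K - d) := by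
    have e1 : ∑ d ∈ range (n + 1), (K - d) + ∑ d ∈ range (n + 1), d = (n + 1) * K := by
      rw [← Finset.sum_add_distrib]
      rw [Finset.sum_congr rfl (g := fun _ => K)]
      · simp
      · intro d hd
        rw [Finset.mem_range] at hd
        omega
    have e2 : (∑ d ∈ range (n + 1), d) * 2 = (n + 1) * n := by
      rw [Finset.sum_range_id_mul_two]; simp
    have e3 : (n + 1) * n ≤ (n + 1) * K := Nat.mul_le_mul_left _ hK
    omega
  rw [← Finset.sum_mul, h1] at h2
  calc (n + 1) * K * (Lam (n + 1) N).card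
      ≤ (2 * ∑ d ∈ range (n + 1), (K - d)) * (Lam (n + 1) N).card := Nat.mul_le_mul_right _ h5
    _ = 2 * ((∑ d ∈ range (n + 1), (K - d)) * (Lam (n + 1) N).card) := by ring
    _ ≤ 2 * ((N + K) * (Lam (n + 1) (N + K)).card) := Nat.mul_le_mul_left _ h2
    _ = _ := by ring

theorem mono {n N M : ℕ} (h : N ≤ M) : (Lam (n + 1) N).card ≤ (Lam (n + 1) M).card := by
  refine Finset.card_le_card_of_injOn (addc 0 0 (M - N)) ?_ (addc_inj _ _ _).injOn
  intro l hl
  have hl := mem_Lam.1 (Finset.mem_coe.1 hl)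
  refine Finset.mem_coe.2 (mem_Lam.2 ⟨addc_anti _ _ _ hl.1, ?_⟩)
  rw [addc_sum, hl.2]
  omega

theorem half {n N b : ℕ} (hb : 1 ≤ b) (hab : n ≤ 4 * b) (h : N + 4 * b ≤ (n + 1) * b) :
    2 * (Lam (n + 1) N).card ≤ (Lam (n + 1) (N + 4 * b)).card := by
  have h1 := key (n := n) (N := N) (K := 4 * b) hab
  have h2 : 2 * (N + 4 * b) * (Lam (n + 1) (N + 4 * b)).card ≤
      2 * ((n + 1) * b) * (Lam (n + 1) (N + 4 * b)).card :=
    Nat.mul_le_mul_right _ (Nat.mul_le_mul_left _ h)
  have h3 : (2 * ((n + 1) * b)) * (2 * (Lam (n + 1) N).card) ≤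
      (2 * ((n + 1) * b)) * (Lam (n + 1) (N + 4 * b)).card := by
    calc (2 * ((n + 1) * b)) * (2 * (Lam (n + 1) N).card)
        = (n + 1) * (4 * b) * (Lam (n + 1) N).card := by ring
      _ ≤ _ := h1.trans h2
  exact Nat.le_of_mul_le_mul_left h3 (by positivity)

theorem iter {n b : ℕ} (hb : 1 ≤ b) (hab : n ≤ 4 * b) (t : ℕ) :
    ∀ N, N + 4 * b * t ≤ (n + 1) * b →
      2 ^ t * (Lam (n + 1) N).card ≤ (Lam (n + 1) (N + 4 * b * t)).card := by
  induction t with
  | zero => intro N _; simp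
  | succ t ih =>
    intro N hN
    have e : N + 4 * b * (t + 1) = (N + 4 * b * t) + 4 * b := by ring
    have h1 := ih N (by rw [e] at hN; omega)
    have h2 := half (n := n) (N := N + 4 * b * t) hb hab (by rw [e] at hN; exact hN)
    rw [e, pow_succ]
    calc 2 ^ t * 2 * (Lam (n + 1) N).card = 2 * (2 ^ t * (Lam (n + 1) N).card) := by ring
      _ ≤ 2 * (Lam (n + 1) (N + 4 * b * t)).card := Nat.mul_le_mul_left _ h1
      _ ≤ _ := h2

theorem decay {n b k : ℕ} (hb : 1 ≤ b) (hab : n ≤ 4 * b) (hk : k ≤ (n + 1) * b) :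
    2 ^ (k / (4 * b)) * (Lam (n + 1) ((n + 1) * b - k)).card ≤ (Lam (n + 1) ((n + 1) * b)).card := by
  have h1 : 4 * b * (k / (4 * b)) ≤ k := Nat.mul_div_le _ _
  have h2 := iter hb hab (k / (4 * b)) ((n + 1) * b - 4 * b * (k / (4 * b))) (by omega)
  rw [show (n + 1) * b - 4 * b * (k / (4 * b)) + 4 * b * (k / (4 * b)) = (n + 1) * b by omega]
    at h2
  refine le_trans (Nat.mul_le_mul_left _ (mono ?_)) h2
  omega

/-- delete the first row -/
def del {n : ℕ} (l : Fin (n + 1) → ℕ) : Fin (n + 1) → ℕ := fun i => nx l ((i : ℕ) + 1)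

theorem nx_antitone {n : ℕ} {l : Fin (n + 1) → ℕ} (hl : Antitone l) : Antitone (nx l) :=
  antitone_nat_of_succ_le (nx_anti hl)

theorem del_anti {n : ℕ} {l : Fin (n + 1) → ℕ} (hl : Antitone l) : Antitone (del l) := by
  intro i i' h
  exact nx_antitone hl (by rw [Fin.le_def] at h; omega)

theorem del_sum {n : ℕ} (l : Fin (n + 1) → ℕ) : l 0 + ∑ i, del l i = ∑ i, l i := by
  have e1 : ∑ i, del l i = ∑ i ∈ range (n + 1), nx l (i + 1) := by
    rw [Finset.sum_range]; rfl
  have e2 : ∑ i, l i = ∑ i ∈ range (n + 1), nx l i := by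
    rw [Finset.sum_range]
    refine Finset.sum_congr rfl fun i _ => ?_
    unfold nx; rw [dif_pos i.2]
  have e3 : nx l (n + 1) = 0 := by unfold nx; rw [dif_neg (by omega)]
  have e4 : nx l 0 = l 0 := by unfold nx; rw [dif_pos (by omega)]; rfl
  have e5 := Finset.sum_range_succ' (nx l) (n + 1)
  have e6 := Finset.sum_range_succ (nx l) (n + 1)
  rw [e1, e2]
  omega

theorem del_inj {n k : ℕ} {l l' : Fin (n + 1) → ℕ} (h0 : l 0 = k) (h0' : l' 0 = k)
    (h : del l = del l') : l = l' := by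
  funext i
  by_cases hi : (i : ℕ) = 0
  · have : i = 0 := Fin.ext hi
    rw [this, h0, h0']
  · have hlt := i.2
    have := congrFun h (⟨(i : ℕ) - 1, by omega⟩ : Fin (n + 1))
    simp only [del, nx] at this
    rw [dif_pos (by omega), dif_pos (by omega)] at this
    have e : (⟨(i : ℕ) - 1 + 1, by omega⟩ : Fin (n + 1)) = i := Fin.ext (by simp; omega)
    rwa [e] at this

open Classical in
theorem first {n N k : ℕ} : ((Lam (n + 1) N).filter fun l => l 0 = k).card ≤
    (Lam (n + 1) (N - k)).card := by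
  refine Finset.card_le_card_of_injOn del ?_ ?_
  · intro l hl
    have hl := Finset.mem_filter.1 (Finset.mem_coe.1 hl)
    have h1 := mem_Lam.1 hl.1
    refine Finset.mem_coe.2 (mem_Lam.2 ⟨del_anti h1.1, ?_⟩)
    have := del_sum l
    rw [h1.2, hl.2] at this
    omega
  · intro l hl l' hl' h
    have hl := Finset.mem_filter.1 (Finset.mem_coe.1 hl)
    have hl' := Finset.mem_filter.1 (Finset.mem_coe.1 hl')
    exact del_inj hl.2 hl'.2 h

open Classical in
theorem tail_succ {n b t : ℕ} (hb : 1 ≤ b) (hab : n ≤ 4 * b) :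
    ((Lam (n + 1) ((n + 1) * b)).filter fun l => ∃ i, t ≤ l i).card * 2 ^ (t / (4 * b)) ≤
      ((n + 1) * b + 1) * (Lam (n + 1) ((n + 1) * b)).card := by
  set N := (n + 1) * b with hN
  have h1 : ((Lam (n + 1) N).filter fun l => ∃ i, t ≤ l i).card ≤
      ∑ k ∈ (range (N + 1)).filter (fun k => t ≤ k),
        ((Lam (n + 1) N).filter fun l => l 0 = k).card := by
    refine le_trans (Finset.card_le_card ?_) Finset.card_biUnion_le
    intro l hl
    rw [Finset.mem_filter] at hl
    obtain ⟨hl, i, hi⟩ := hl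
    have hl' := mem_Lam.1 hl
    have h0 : l i ≤ l 0 := hl'.1 (Fin.zero_le i)
    have h3 : l 0 ≤ N := by
      rw [← hl'.2]
      exact Finset.single_le_sum (f := l) (fun _ _ => Nat.zero_le _) (Finset.mem_univ 0)
    rw [Finset.mem_biUnion]
    exact ⟨l 0, Finset.mem_filter.2 ⟨Finset.mem_range.2 (by omega), hi.trans h0⟩,
      Finset.mem_filter.2 ⟨hl, rfl⟩⟩
  have h2 : ∀ k ∈ (range (N + 1)).filter (fun k => t ≤ k),
      ((Lam (n + 1) N).filter fun l => l 0 = k).card * 2 ^ (t / (4 * b)) ≤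
        (Lam (n + 1) N).card := by
    intro k hk
    rw [Finset.mem_filter, Finset.mem_range] at hk
    have h3 := decay (n := n) (k := k) hb hab (by omega)
    calc ((Lam (n + 1) N).filter fun l => l 0 = k).card * 2 ^ (t / (4 * b))
        ≤ (Lam (n + 1) (N - k)).card * 2 ^ (k / (4 * b)) :=
          Nat.mul_le_mul first (Nat.pow_le_pow_right (by norm_num) (Nat.div_le_div_right hk.2))
      _ = 2 ^ (k / (4 * b)) * (Lam (n + 1) (N - k)).card := mul_comm _ _
      _ ≤ _ := h3
  calc ((Lam (n + 1) N).filter fun l => ∃ i, t ≤ l i).card * 2 ^ (t / (4 * b))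
      ≤ (∑ k ∈ (range (N + 1)).filter (fun k => t ≤ k),
        ((Lam (n + 1) N).filter fun l => l 0 = k).card) * 2 ^ (t / (4 * b)) :=
        Nat.mul_le_mul_right _ h1
    _ = ∑ k ∈ (range (N + 1)).filter (fun k => t ≤ k),
        ((Lam (n + 1) N).filter fun l => l 0 = k).card * 2 ^ (t / (4 * b)) := Finset.sum_mul _ _ _
    _ ≤ ∑ k ∈ (range (N + 1)).filter (fun k => t ≤ k), (Lam (n + 1) N).card :=
        Finset.sum_le_sum h2
    _ = ((range (N + 1)).filter (fun k => t ≤ k)).card * (Lam (n + 1) N).card := by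
        rw [Finset.sum_const, smul_eq_mul]
    _ ≤ (N + 1) * (Lam (n + 1) N).card := by
        refine Nat.mul_le_mul_right _ ((Finset.card_filter_le _ _).trans ?_)
        rw [Finset.card_range]

open Classical in
/-- **The tail bound.** Among the partitions of `a * b` with at most `a` parts, `a ≤ 4 b`, the
proportion with largest part at least `t` is at most `(a * b + 1) / 2 ^ ⌊t / (4 b)⌋`. -/
theorem tail (a b t : ℕ) (hb : 1 ≤ b) (hab : a ≤ 4 * b) :
    ((Lam a (a * b)).filter fun l => ∃ i, t ≤ l i).card * 2 ^ (t / (4 * b)) ≤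
      (a * b + 1) * (Lam a (a * b)).card := by
  rcases a with _ | n
  · have : ((Lam 0 (0 * b)).filter fun l => ∃ i, t ≤ l i) = ∅ := by
      refine Finset.filter_eq_empty_iff.2 ?_
      rintro l _ ⟨i, _⟩
      exact i.elim0
    rw [this]; simp
  · exact tail_succ hb (by omega)

open Classical in
/-- **Almost all partitions have a short first row.** If `s a / log a → ∞` then the proportion of
the partitions of `q a ^ 2` with at most `a` parts, all of them at most `s a * (q a)`, tends to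
`1`. -/
theorem almost_all (q : ℕ) (hq : 1 ≤ q) (s : ℕ → ℕ)
    (hs : Tendsto (fun a : ℕ => (s a : ℝ) / Real.log a) atTop atTop) (ε : ℝ) (he : 0 < ε) :
    ∀ᶠ a : ℕ in atTop, (1 - ε) * ((Lam a (a * (q * a))).card : ℝ) ≤
      (((Lam a (a * (q * a))).filter fun l => ∀ i, l i ≤ s a * (q * a)).card : ℝ) := by
  have h1 := hs.eventually_ge_atTop (12 / Real.log 2)
  have h2 : ∀ᶠ a : ℕ in atTop, 2 * ((q : ℝ) + 1) / ε ≤ (a : ℝ) :=
    tendsto_natCast_atTop_atTop.eventually_ge_atTop _
  filter_upwards [h1, h2, eventually_ge_atTop 2] with a ha1 ha2 ha3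
  have ha : (0 : ℝ) < a := by exact_mod_cast (by omega : 0 < a)
  have hlog : 0 < Real.log a := Real.log_pos (by exact_mod_cast (by omega : 1 < a))
  have hl2 : 0 < Real.log 2 := Real.log_pos (by norm_num)
  have hb : 1 ≤ q * a := Nat.one_le_iff_ne_zero.2 (by positivity)
  set b := q * a with hbdef
  have hab : a ≤ 4 * b := by
    calc a = 1 * a := (one_mul a).symm
      _ ≤ q * a := Nat.mul_le_mul_right _ hq
      _ ≤ 4 * b := by omega
  set t := s a * b with ht
  have h3 := tail a b (t + 1) hb hab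
  set L := Lam a (a * b) with hL
  have h4 : (L.filter fun l => ∀ i, l i ≤ t).card + (L.filter fun l => ∃ i, t + 1 ≤ l i).card
      = L.card := by
    rw [← Finset.card_filter_add_card_filter_not (s := L) (fun l => ∀ i, l i ≤ t)]
    congr 2
    refine Finset.filter_congr fun l _ => ?_
    simp only [not_forall, not_le, Nat.succ_le_iff]
  have h5 : s a / 4 ≤ (t + 1) / (4 * b) := by
    rw [Nat.le_div_iff_mul_le (by omega)]
    have := Nat.div_mul_le_self (s a) 4
    calc s a / 4 * (4 * b) = (s a / 4 * 4) * b := by ring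
      _ ≤ s a * b := Nat.mul_le_mul_right _ this
      _ ≤ t + 1 := by omega
  -- `a ^ 3 ≤ 2 * 2 ^ (s a / 4)`
  have h6 : (a : ℝ) ^ 3 ≤ 2 * 2 ^ (s a / 4) := by
    have e1 : 12 * Real.log a ≤ (s a : ℝ) * Real.log 2 := by
      rw [div_le_div_iff₀ hl2 hlog] at ha1
      exact ha1
    have e2 : (s a : ℝ) ≤ 4 * ((s a / 4 : ℕ) : ℝ) + 4 := by
      have := Nat.lt_div_mul_add (a := s a) (b := 4) (by norm_num)
      have h : s a ≤ 4 * (s a / 4) + 4 := by omega
      exact_mod_cast h
    have e3 : 3 * Real.log a ≤ ((s a / 4 : ℕ) + 1 : ℝ) * Real.log 2 := by nlinarith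
    have e4 : Real.log ((a : ℝ) ^ 3) ≤ Real.log (2 * 2 ^ (s a / 4)) := by
      rw [Real.log_pow, Real.log_mul (by norm_num) (by positivity), Real.log_pow]
      push_cast at *
      linarith
    exact (Real.log_le_log_iff (by positivity) (by positivity)).1 e4
  have h7 : ((L.filter fun l => ∃ i, t + 1 ≤ l i).card : ℝ) * 2 ^ (s a / 4) ≤
      ((a : ℝ) * b + 1) * L.card := by
    have e1 : (L.filter fun l => ∃ i, t + 1 ≤ l i).card * 2 ^ (s a / 4) ≤
        (a * b + 1) * L.card :=
      le_trans (Nat.mul_le_mul_left _ (Nat.pow_le_pow_right (by norm_num) h5)) h3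
    exact_mod_cast e1
  have h8 : ((a : ℝ) * b + 1) ≤ ε * 2 ^ (s a / 4) := by
    have e1 : (b : ℝ) = q * a := by rw [hbdef]; push_cast; ring
    have e2 : 2 * ((q : ℝ) + 1) ≤ ε * a := by
      rw [div_le_iff₀ he] at ha2
      linarith
    have e3 : (1 : ℝ) ≤ (a : ℝ) ^ 2 := by
      have : (1 : ℝ) ≤ a := by exact_mod_cast (by omega : 1 ≤ a)
      nlinarith
    rw [e1]
    calc (a : ℝ) * (q * a) + 1 ≤ ((q : ℝ) + 1) * (a : ℝ) ^ 2 := by nlinarith
      _ ≤ (ε * a / 2) * (a : ℝ) ^ 2 := by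
        refine mul_le_mul_of_nonneg_right ?_ (by positivity)
        linarith
      _ = ε / 2 * (a : ℝ) ^ 3 := by ring
      _ ≤ ε / 2 * (2 * 2 ^ (s a / 4)) := mul_le_mul_of_nonneg_left h6 (by positivity)
      _ = ε * 2 ^ (s a / 4) := by ring
  have h9 : ((L.filter fun l => ∃ i, t + 1 ≤ l i).card : ℝ) ≤ ε * L.card := by
    have hp : (0 : ℝ) < 2 ^ (s a / 4) := by positivity
    refine le_of_mul_le_mul_right ?_ hp
    calc _ ≤ ((a : ℝ) * b + 1) * L.card := h7
      _ ≤ (ε * 2 ^ (s a / 4)) * L.card := mul_le_mul_of_nonneg_right h8 (Nat.cast_nonneg _)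
      _ = _ := by ring
  have h10 : ((L.filter fun l => ∀ i, l i ≤ t).card : ℝ) +
      ((L.filter fun l => ∃ i, t + 1 ≤ l i).card : ℝ) = L.card := by exact_mod_cast h4
  linarith

end Vale.Agent.P181.H676
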